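import Crest.Agent.R56.Local

/-!
Averaging the local bound over all vertex sets `W` of a fixed size.
-/

set_option autoImplicit false

namespace Crest.Agent.R56

open Finset Crest.FinProb Crest.Agent.Lib.CubeFourier

variable {ι : Type*} [Fintype ι] [DecidableEq ι] {V : Type*} [Fintype V] [DecidableEq V]

theorem choose_le_sub_add (N k j : ℕ) :
    N.choose (k + 1) ≤ (N - j).choose (k + 1) + j * (N - 1).choose k := by
  induction j with
  | zero => simp
  | succ j ih =>
    have h : (N - j).choose (k + 1) ≤ (N - (j + 1)).choose (k + 1) + (N - 1).choose k := by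
      rcases Nat.eq_zero_or_pos (N - j) with h | h
      · rw [h]; simp
      · obtain ⟨t, ht⟩ : ∃ t, N - j = t + 1 := ⟨N - j - 1, by omega⟩
        have ht' : N - (j + 1) = t := by omega
        rw [ht, ht', Nat.choose_succ_succ']
        have : t.choose k ≤ (N - 1).choose k := Nat.choose_le_choose k (by omega)
        omega
    calc _ ≤ _ := ih
      _ ≤ (N - (j + 1)).choose (k + 1) + (N - 1).choose k + j * (N - 1).choose k := by omega
      _ = _ := by ring

theorem choose_le_two_mul (N k j : ℕ) (h : 2 * j * k ≤ N) :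
    N.choose k ≤ 2 * (N - j).choose k := by
  rcases k with _ | k
  · simp
  rcases Nat.eq_zero_or_pos N with hN | hN
  · subst hN; simp
  have h1 := choose_le_sub_add N k j
  obtain ⟨t, rfl⟩ : ∃ t, N = t + 1 := ⟨N - 1, by omega⟩
  have h2 : (t + 1) * t.choose k = (t + 1).choose (k + 1) * (k + 1) :=
    Nat.add_one_mul_choose_eq t k
  simp only [Nat.add_sub_cancel] at h1
  have h3 : (t + 1) * (2 * (j * t.choose k)) ≤ (t + 1) * (t + 1).choose (k + 1) := by
    calc (t + 1) * (2 * (j * t.choose k)) = 2 * j * ((t + 1) * t.choose k) := by ring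
      _ = (2 * j * (k + 1)) * (t + 1).choose (k + 1) := by rw [h2]; ring
      _ ≤ _ := Nat.mul_le_mul_right _ h
  have h4 := Nat.le_of_mul_le_mul_left h3 (Nat.succ_pos t)
  omega

/-- Slots with at least two vertices in `W`. -/
def slotsA (vs : ι → Finset V) (W : Finset V) : Finset ι :=
  Finset.univ.filter (fun e => 2 ≤ (vs e ∩ W).card)

/-- Slots with exactly one vertex in `W`. -/
def slotsB (vs : ι → Finset V) (W : Finset V) : Finset ι :=
  Finset.univ.filter (fun e => (vs e ∩ W).card = 1)

omit [Fintype V] in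
theorem map_swap_inter {W : Finset V} {w w' : V} (hw : w ∈ W) (hw' : w' ∈ W) (s : Finset V) :
    s.map (Equiv.swap w w').toEmbedding ∩ W = (s ∩ W).map (Equiv.swap w w').toEmbedding := by
  ext a
  simp only [Finset.mem_inter, Finset.mem_map_equiv, Equiv.symm_swap]
  have : Equiv.swap w w' a ∈ W ↔ a ∈ W := by
    rw [Equiv.swap_apply_def]
    split_ifs with h1 h2
    · subst h1; simp [hw, hw']
    · subst h2; simp [hw, hw']
    · rfl
  rw [this]

omit [Fintype V] [DecidableEq ι] in
theorem sym_slots (vs : ι → Finset V) (hinj : Function.Injective vs) (f : (ι → Bool) → ℝ)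
    (hsym : ∀ σ : Equiv.Perm V, ∃ π : Equiv.Perm ι,
      (∀ e, vs (π e) = (vs e).map σ.toEmbedding) ∧ ∀ x, f (x ∘ π) = f x)
    (W : Finset V) :
    ∀ e ∈ slotsB vs W, ∃ T ⊆ slotsB vs W, W.card ≤ T.card ∧ ∀ e' ∈ T, ∃ π : Equiv.Perm ι,
      π e = e' ∧ (∀ x, f (x ∘ π) = f x) ∧ (∀ i, π i ∈ slotsA vs W ↔ i ∈ slotsA vs W) ∧
      (∀ i, π i ∈ slotsB vs W ↔ i ∈ slotsB vs W) ∧
      (∀ i, i ∉ slotsA vs W → i ∉ slotsB vs W → π i = i) := by
  classical
  intro e he
  choose P hP1 hP2 using hsym
  have he1 : (vs e ∩ W).card = 1 := (Finset.mem_filter.mp he).2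
  obtain ⟨w, hw⟩ := Finset.card_eq_one.mp he1
  have hwW : w ∈ W := by
    have : w ∈ vs e ∩ W := by rw [hw]; simp
    exact (Finset.mem_inter.mp this).2
  have hcard : ∀ w' ∈ W, ∀ i, (vs (P (Equiv.swap w w') i) ∩ W).card = (vs i ∩ W).card := by
    intro w' hw' i
    rw [hP1, map_swap_inter hwW hw', Finset.card_map]
  refine ⟨W.image (fun w' => P (Equiv.swap w w') e), ?_, ?_, ?_⟩
  · intro e' he'
    obtain ⟨w', hw', rfl⟩ := Finset.mem_image.mp he'
    simp only [slotsB, Finset.mem_filter, Finset.mem_univ, true_and]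
    rw [hcard w' hw', he1]
  · rw [Finset.card_image_of_injOn]
    intro a ha b hb hab
    have key : ∀ c ∈ W, vs (P (Equiv.swap w c) e) ∩ W = {c} := by
      intro c hc
      rw [hP1, map_swap_inter hwW hc, hw]
      simp
    have h1 := key a ha
    have h2 := key b hb
    simp only at hab
    rw [hab, h2] at h1
    exact (Finset.singleton_injective h1).symm
  · intro e' he'
    obtain ⟨w', hw', rfl⟩ := Finset.mem_image.mp he'
    refine ⟨P (Equiv.swap w w'), rfl, hP2 _, ?_, ?_, ?_⟩
    · intro i
      simp only [slotsA, Finset.mem_filter, Finset.mem_univ, true_and]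
      rw [hcard w' hw']
    · intro i
      simp only [slotsB, Finset.mem_filter, Finset.mem_univ, true_and]
      rw [hcard w' hw']
    · intro i hiA hiB
      simp only [slotsA, slotsB, Finset.mem_filter, Finset.mem_univ, true_and] at hiA hiB
      have h0 : vs i ∩ W = ∅ := Finset.card_eq_zero.mp (by omega)
      apply hinj
      rw [hP1]
      have hn : ∀ c ∈ W, c ∉ vs i := by
        intro c hc hci
        have : c ∈ vs i ∩ W := Finset.mem_inter.mpr ⟨hci, hc⟩
        rw [h0] at this
        simp at this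
      ext a
      simp only [Finset.mem_map_equiv, Equiv.symm_swap]
      rw [Equiv.swap_apply_def]
      split_ifs with h1 h2
      · subst h1; simp [hn _ hwW, hn _ hw']
      · subst h2; simp [hn _ hwW, hn _ hw']
      · rfl

/-- The degree of a vertex in a set of slots. -/
def deg (vs : ι → Finset V) (S : Finset ι) (w : V) : ℕ := (S.filter (fun e => w ∈ vs e)).card

theorem count_lower (vs : ι → Finset V) (U : Finset ι) (w : V) (D M k : ℕ)
    (h1 : 1 ≤ deg vs U w) (hD : deg vs U w ≤ D) (hM : (U.biUnion vs).card ≤ M) :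
    (Fintype.card V - M).choose k ≤
      ((Finset.powersetCard (k + 1) (Finset.univ : Finset V)).filter (fun W =>
        Disjoint U (slotsA vs W) ∧ (U ∩ slotsB vs W).Nonempty ∧
          (U ∩ slotsB vs W).card ≤ D)).card := by
  have hwU : w ∈ U.biUnion vs := by
    obtain ⟨e, he⟩ := Finset.card_pos.mp h1
    exact Finset.mem_biUnion.mpr ⟨e, (Finset.mem_filter.mp he).1, (Finset.mem_filter.mp he).2⟩
  calc (Fintype.card V - M).choose k ≤ (Fintype.card V - (U.biUnion vs).card).choose k :=
        Nat.choose_le_choose k (by omega)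
    _ = (Finset.powersetCard k (U.biUnion vs)ᶜ).card := by
        rw [Finset.card_powersetCard, Finset.card_compl]
    _ ≤ _ := by
        apply Finset.card_le_card_of_injOn (fun W' => insert w W')
        · intro W' hW'
          have hW := Finset.mem_powersetCard.mp (Finset.mem_coe.mp hW')
          have hnot : ∀ a ∈ U.biUnion vs, a ∉ W' := by
            intro a ha haW
            exact Finset.mem_compl.mp (hW.1 haW) ha
          have hint : ∀ e ∈ U, vs e ∩ insert w W' = if w ∈ vs e then {w} else ∅ := by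
            intro e he
            ext a
            have : a ∈ vs e → a ∉ W' := fun ha => hnot a (Finset.mem_biUnion.mpr ⟨e, he, ha⟩)
            split_ifs with hwe
            · simp only [Finset.mem_inter, Finset.mem_insert, Finset.mem_singleton]
              constructor
              · rintro ⟨ha, h | h⟩
                · exact h
                · exact absurd h (this ha)
              · rintro rfl
                exact ⟨hwe, Or.inl rfl⟩
            · simp only [Finset.mem_inter, Finset.mem_insert, Finset.notMem_empty, iff_false]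
              rintro ⟨ha, h | h⟩
              · exact hwe (h ▸ ha)
              · exact this ha h
          have hUB : U ∩ slotsB vs (insert w W') = U.filter (fun e => w ∈ vs e) := by
            ext e
            simp only [slotsB, Finset.mem_inter, Finset.mem_filter, Finset.mem_univ, true_and]
            constructor
            · rintro ⟨he, hc⟩
              refine ⟨he, ?_⟩
              rw [hint e he] at hc
              by_contra hwe
              simp [hwe] at hc
            · rintro ⟨he, hwe⟩
              refine ⟨he, ?_⟩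
              rw [hint e he]
              simp [hwe]
          simp only [Finset.coe_filter, Set.mem_ofPred_eq, Finset.mem_powersetCard]
          refine ⟨⟨Finset.subset_univ _, ?_⟩, ?_, ?_, ?_⟩
          · rw [Finset.card_insert_of_notMem (hnot w hwU), hW.2]
          · rw [Finset.disjoint_left]
            intro e he heA
            simp only [slotsA, Finset.mem_filter, Finset.mem_univ, true_and] at heA
            rw [hint e he] at heA
            split_ifs at heA <;> simp at heA
          · rw [hUB]
            exact Finset.card_pos.mp h1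
          · rw [hUB]
            exact hD
        · intro W1 h1' W2 h2' h12
          have hW1 := Finset.mem_powersetCard.mp (Finset.mem_coe.mp h1')
          have hW2 := Finset.mem_powersetCard.mp (Finset.mem_coe.mp h2')
          have n1 : w ∉ W1 := fun h => Finset.mem_compl.mp (hW1.1 h) hwU
          have n2 : w ∉ W2 := fun h => Finset.mem_compl.mp (hW2.1 h) hwU
          simp only at h12
          rw [← Finset.erase_insert n1, ← Finset.erase_insert n2, h12]

theorem count_upper (vs : ι → Finset V) (e : ι) (k : ℕ) :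
    ((Finset.powersetCard (k + 1) (Finset.univ : Finset V)).filter (fun W =>
        e ∈ slotsB vs W)).card ≤ (vs e).card * (Fintype.card V).choose k := by
  classical
  have hsub : (Finset.powersetCard (k + 1) (Finset.univ : Finset V)).filter (fun W =>
        e ∈ slotsB vs W) ⊆ (vs e).biUnion (fun w =>
          (Finset.powersetCard k (Finset.univ : Finset V)).image (fun W' => insert w W')) := by
    intro W hW
    obtain ⟨hW1, hW2⟩ := Finset.mem_filter.mp hW
    have h1 : (vs e ∩ W).card = 1 := (Finset.mem_filter.mp hW2).2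
    obtain ⟨w, hw⟩ := Finset.card_pos.mp (by omega : 0 < (vs e ∩ W).card)
    obtain ⟨hw1, hw2⟩ := Finset.mem_inter.mp hw
    refine Finset.mem_biUnion.mpr ⟨w, hw1, Finset.mem_image.mpr ⟨W.erase w, ?_, ?_⟩⟩
    · rw [Finset.mem_powersetCard]
      refine ⟨Finset.subset_univ _, ?_⟩
      rw [Finset.card_erase_of_mem hw2, (Finset.mem_powersetCard.mp hW1).2]
      simp
    · exact Finset.insert_erase hw2
  refine le_trans (Finset.card_le_card hsub) ?_
  apply Finset.card_biUnion_le_card_mul
  intro w _
  refine le_trans Finset.card_image_le ?_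
  rw [Finset.card_powersetCard, Finset.card_univ]

theorem low_weight {p : ℝ} (h0 : 0 < p) (h1 : p < 1) (f : (ι → Bool) → ℝ)
    (hf0 : ∀ x, 0 ≤ f x) (hf1 : ∀ x, f x ≤ 1) (vs : ι → Finset V) (hinj : Function.Injective vs)
    (r : ℕ) (hr : ∀ e, (vs e).card = r)
    (hsym : ∀ σ : Equiv.Perm V, ∃ π : Equiv.Perm ι,
      (∀ e, vs (π e) = (vs e).map σ.toEmbedding) ∧ ∀ x, f (x ∘ π) = f x)
    (k D M : ℕ) (η : ℝ) (hη : 0 < η) (hK : (4 / sig p) ^ (2 * D) ≤ η ^ 3 * ((k + 1 : ℕ) : ℝ))
    (hM : 2 * M * k ≤ Fintype.card V) (hk : k ≤ Fintype.card V)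
    (𝓛 : Finset (Finset ι))
    (h𝓛 : ∀ U ∈ 𝓛, (U.biUnion vs).card ≤ M ∧ ∃ w, 1 ≤ deg vs U w ∧ deg vs U w ≤ D) :
    ∑ U ∈ 𝓛, coeff p f U ^ 2 ≤ 2 * η * r * ∑ e, Ex p (fun x => |Dv e f x|) := by
  set 𝓦 := Finset.powersetCard (k + 1) (Finset.univ : Finset V) with h𝓦
  set good : Finset ι → Finset V → Prop := fun U W =>
    Disjoint U (slotsA vs W) ∧ (U ∩ slotsB vs W).Nonempty ∧ (U ∩ slotsB vs W).card ≤ D with hgood
  set b : ι → ℝ := fun e => Ex p (fun x => |Dv e f x|) with hb
  have hb0 : ∀ e, 0 ≤ b e := fun e => Ex_nonneg h0.le h1.le fun x => abs_nonneg _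
  have hloc : ∀ W ∈ 𝓦, ∑ U ∈ 𝓛.filter (fun U => good U W), coeff p f U ^ 2 ≤
      η * ∑ e ∈ slotsB vs W, b e := by
    intro W hW
    have hWc : W.card = k + 1 := (Finset.mem_powersetCard.mp hW).2
    apply local_bound h0 h1 f hf0 hf1 (A := slotsA vs W) (B := slotsB vs W) _ (k + 1) η hη D hK
    · have := sym_slots vs hinj f hsym W
      rwa [hWc] at this
    · intro U hU
      exact (Finset.mem_filter.mp hU).2
    · rw [Finset.disjoint_left]
      intro e heA heB
      simp only [slotsA, slotsB, Finset.mem_filter, Finset.mem_univ, true_and] at heA heB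
      omega
  have hsum := Finset.sum_le_sum hloc
  set c : ℝ := (((Fintype.card V).choose k : ℕ) : ℝ) with hc
  have hcpos : 0 < c := by
    rw [hc]; exact_mod_cast Nat.choose_pos hk
  have hL : c * ∑ U ∈ 𝓛, coeff p f U ^ 2 ≤
      2 * ∑ W ∈ 𝓦, ∑ U ∈ 𝓛.filter (fun U => good U W), coeff p f U ^ 2 := by
    simp only [Finset.sum_filter]
    rw [Finset.sum_comm, Finset.mul_sum, Finset.mul_sum]
    apply Finset.sum_le_sum
    intro U hU
    rw [← Finset.sum_filter, Finset.sum_const, nsmul_eq_mul, ← mul_assoc]
    apply mul_le_mul_of_nonneg_right _ (sq_nonneg _)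
    obtain ⟨hU1, w, hw1, hw2⟩ := h𝓛 U hU
    have e1 := count_lower vs U w D M k hw1 hw2 hU1
    have e2 := choose_le_two_mul (Fintype.card V) k M hM
    rw [hc]
    exact_mod_cast le_trans e2 (Nat.mul_le_mul_left 2 e1)
  have hR : ∑ W ∈ 𝓦, η * ∑ e ∈ slotsB vs W, b e ≤ c * (η * r * ∑ e, b e) := by
    rw [← Finset.mul_sum]
    have : ∑ W ∈ 𝓦, ∑ e ∈ slotsB vs W, b e ≤ c * (r * ∑ e, b e) := by
      have e1 : ∀ W, ∑ e ∈ slotsB vs W, b e = ∑ e, if e ∈ slotsB vs W then b e else 0 := by
        intro W
        rw [← Finset.sum_filter]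
        congr 1
        ext e; simp
      simp only [e1]
      rw [Finset.sum_comm, Finset.mul_sum, Finset.mul_sum]
      apply Finset.sum_le_sum
      intro e _
      rw [← Finset.sum_filter, Finset.sum_const, nsmul_eq_mul, ← mul_assoc]
      apply mul_le_mul_of_nonneg_right _ (hb0 e)
      have := count_upper vs e k
      rw [hr e, mul_comm] at this
      rw [hc]
      exact_mod_cast this
    calc _ ≤ η * (c * (r * ∑ e, b e)) := mul_le_mul_of_nonneg_left this hη.le
      _ = _ := by ring
  have : c * ∑ U ∈ 𝓛, coeff p f U ^ 2 ≤ c * (2 * η * r * ∑ e, b e) := by nlinarith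
  exact le_of_mul_le_mul_left this hcpos

omit [Fintype ι] [Fintype V] [DecidableEq ι] in
theorem high_degree (vs : ι → Finset V) (hinj : Function.Injective vs) (r : ℕ) (hr1 : 1 ≤ r)
    (hr : ∀ e, (vs e).card = r) (S : Finset ι) (hS : S.Nonempty) (D : ℕ)
    (h : ∀ w, 1 ≤ deg vs S w → D + 1 ≤ deg vs S w) :
    ∃ v : ℕ, D + 1 ≤ v ^ (r - 1) ∧ v * (D + 1) ≤ r * S.card := by
  have hdeg : ∀ w ∈ S.biUnion vs, D + 1 ≤ deg vs S w := by
    intro w hw
    obtain ⟨e, he, hwe⟩ := Finset.mem_biUnion.mp hw
    exact h w (Finset.card_pos.mpr ⟨e, Finset.mem_filter.mpr ⟨he, hwe⟩⟩)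
  refine ⟨(S.biUnion vs).card, ?_, ?_⟩
  · obtain ⟨e, he⟩ := hS
    obtain ⟨w, hw⟩ := Finset.card_pos.mp (by rw [hr e]; omega : 0 < (vs e).card)
    have hwU : w ∈ S.biUnion vs := Finset.mem_biUnion.mpr ⟨e, he, hw⟩
    refine le_trans (hdeg w hwU) (le_trans ?_ (Nat.choose_le_pow _ _))
    rw [← Finset.card_powersetCard]
    apply Finset.card_le_card_of_injOn (fun e => (vs e).erase w)
    · intro a ha
      obtain ⟨ha1, ha2⟩ := Finset.mem_filter.mp (Finset.mem_coe.mp ha)
      simp only [Finset.mem_coe, Finset.mem_powersetCard]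
      refine ⟨fun x hx => Finset.mem_biUnion.mpr ⟨a, ha1, Finset.mem_of_mem_erase hx⟩, ?_⟩
      rw [Finset.card_erase_of_mem ha2, hr a]
    · intro a ha a' ha' haa
      have h2 := (Finset.mem_filter.mp (Finset.mem_coe.mp ha)).2
      have h2' := (Finset.mem_filter.mp (Finset.mem_coe.mp ha')).2
      apply hinj
      simp only at haa
      rw [← Finset.insert_erase h2, ← Finset.insert_erase h2', haa]
  · calc (S.biUnion vs).card * (D + 1) = ∑ _w ∈ S.biUnion vs, (D + 1) := by simp
      _ ≤ ∑ w ∈ S.biUnion vs, deg vs S w := Finset.sum_le_sum hdeg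
      _ = ∑ e ∈ S, ((S.biUnion vs).filter (fun w => w ∈ vs e)).card := by
          unfold deg
          simp only [Finset.card_filter]
          rw [Finset.sum_comm]
      _ ≤ ∑ _e ∈ S, r := by
          apply Finset.sum_le_sum
          intro e _
          rw [← hr e]
          exact Finset.card_le_card fun w hw => (Finset.mem_filter.mp hw).2
      _ = _ := by simp [mul_comm]

end Crest.Agent.R56
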