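import Crest.Agent.R56.Main
import Crest.Prelude.Def_RandomGraph

/-!
The sharp threshold for monotone graph properties.
-/

set_option autoImplicit false

namespace Crest.Agent.R56

open Finset Crest.FinProb Crest.Agent.Lib.CubeFourier Crest.CombinatoricsR.RandomGraph

/-- Integrating the differential inequality `μ' ≥ c μ (1 - μ)`. -/
theorem ode_bound (μ μ' : ℝ → ℝ) (hd : ∀ t, HasDerivAt μ (μ' t) t) (c p q ε : ℝ)
    (hpq : p ≤ q) (hε0 : 0 < ε) (hε : ε < 1 / 2)
    (hnn : ∀ t ∈ Set.Ioo p q, 0 ≤ μ' t)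
    (hμ : ∀ t ∈ Set.Ioo p q, c * (μ t * (1 - μ t)) ≤ μ' t) (hp : ε ≤ μ p)
    (hq : 4 * Real.log (1 / (2 * ε)) ≤ c * (q - p)) : 1 - ε ≤ μ q := by
  have hdiff : Differentiable ℝ μ := fun t => (hd t).differentiableAt
  have hmono : MonotoneOn μ (Set.Icc p q) := by
    apply monotoneOn_of_deriv_nonneg (convex_Icc p q) hdiff.continuous.continuousOn
      hdiff.differentiableOn
    intro t ht
    rw [interior_Icc] at ht
    rw [(hd t).deriv]
    exact hnn t ht
  have hpos : ∀ t ∈ Set.Icc p q, 0 < μ t := fun t ht =>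
    lt_of_lt_of_le hε0 (le_trans hp (hmono (Set.left_mem_Icc.mpr hpq) ht ht.1))
  set ψ : ℝ → ℝ := fun t => ((μ t)⁻¹ - 1) * Real.exp (c * t) with hψ
  have hψd : ∀ t ∈ Set.Icc p q, HasDerivAt ψ
      ((-μ' t / μ t ^ 2) * Real.exp (c * t) + ((μ t)⁻¹ - 1) * (Real.exp (c * t) * c)) t := by
    intro t ht
    have h1 : HasDerivAt (fun t => (μ t)⁻¹ - 1) (-μ' t / μ t ^ 2) t :=
      ((hd t).inv (hpos t ht).ne').sub_const 1
    have h2 : HasDerivAt (fun t => Real.exp (c * t)) (Real.exp (c * t) * c) t := by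
      simpa using ((hasDerivAt_id t).const_mul c).exp
    exact h1.mul h2
  have hanti : AntitoneOn ψ (Set.Icc p q) := by
    apply antitoneOn_of_deriv_nonpos (convex_Icc p q)
    · intro t ht
      exact (hψd t ht).continuousAt.continuousWithinAt
    · intro t ht
      exact (hψd t (interior_subset ht)).differentiableAt.differentiableWithinAt
    · intro t ht
      rw [(hψd t (interior_subset ht)).deriv]
      have h1 := hpos t (interior_subset ht)
      rw [interior_Icc] at ht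
      have h2 := hμ t ht
      have h3 : (-μ' t / μ t ^ 2) * Real.exp (c * t) + ((μ t)⁻¹ - 1) * (Real.exp (c * t) * c) =
          (c * (μ t * (1 - μ t)) - μ' t) * (Real.exp (c * t) / μ t ^ 2) := by
        field_simp
        ring
      rw [h3]
      exact mul_nonpos_of_nonpos_of_nonneg (by linarith) (by positivity)
  have h1 := hanti (Set.left_mem_Icc.mpr hpq) (Set.right_mem_Icc.mpr hpq) hpq
  simp only [hψ] at h1
  have hq0 := hpos q (Set.right_mem_Icc.mpr hpq)
  have h2 : (μ p)⁻¹ ≤ ε⁻¹ := inv_anti₀ hε0 hp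
  have h3 : (1 / (2 * ε)) ^ 4 * Real.exp (c * p) ≤ Real.exp (c * q) := by
    have : (1 / (2 * ε)) ^ 4 = Real.exp (4 * Real.log (1 / (2 * ε))) := by
      rw [show (4 : ℝ) = ((4 : ℕ) : ℝ) by norm_num, Real.exp_nat_mul,
        Real.exp_log (by positivity)]
    rw [this, ← Real.exp_add]
    exact Real.exp_le_exp.mpr (by linarith)
  by_contra hlt
  push Not at hlt
  have h4 : (1 - ε)⁻¹ < (μ q)⁻¹ := inv_strictAnti₀ hq0 hlt
  have h5 : 0 < (1 - ε)⁻¹ - 1 := by
    have : 1 < (1 - ε)⁻¹ := one_lt_inv_iff₀.mpr ⟨by linarith, by linarith⟩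
    linarith
  have h6 : ((1 - ε)⁻¹ - 1) * ((1 / (2 * ε)) ^ 4 * Real.exp (c * p)) <
      (ε⁻¹ - 1) * Real.exp (c * p) := by
    calc _ ≤ ((1 - ε)⁻¹ - 1) * Real.exp (c * q) := mul_le_mul_of_nonneg_left h3 h5.le
      _ < ((μ q)⁻¹ - 1) * Real.exp (c * q) :=
          mul_lt_mul_of_pos_right (by linarith) (Real.exp_pos _)
      _ ≤ _ := h1
      _ ≤ _ := mul_le_mul_of_nonneg_right (by linarith) (Real.exp_pos _).le
  rw [← mul_assoc] at h6
  have h7 := lt_of_mul_lt_mul_right h6 (Real.exp_pos _).le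
  have h8 : 1 - ε ≠ 0 := by linarith
  have h9 : ((1 - ε)⁻¹ - 1) * (1 / (2 * ε)) ^ 4 - (ε⁻¹ - 1) =
      (1 - (4 * ε * (1 - ε)) ^ 2) / (16 * ε ^ 3 * (1 - ε)) := by
    field_simp
    ring
  have h10 : 0 ≤ (1 - (4 * ε * (1 - ε)) ^ 2) / (16 * ε ^ 3 * (1 - ε)) := by
    apply div_nonneg
    · have a1 : 4 * ε * (1 - ε) ≤ 1 := by nlinarith [sq_nonneg (1 - 2 * ε)]
      have a2 : 0 ≤ 4 * ε * (1 - ε) := by nlinarith
      nlinarith
    · have : 0 < 1 - ε := by linarith
      positivity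
  linarith

/-- The action of a vertex permutation on edge slots. -/
def slotMap {n : ℕ} (σ : Equiv.Perm (Fin n)) (e : EdgeSlot n) : EdgeSlot n :=
  ⟨e.1.map σ, fun h => e.2 ((Sym2.isDiag_map σ.injective).mp h)⟩

/-- The action as a permutation. -/
def slotPerm {n : ℕ} (σ : Equiv.Perm (Fin n)) : Equiv.Perm (EdgeSlot n) where
  toFun := slotMap σ
  invFun := slotMap σ.symm
  left_inv := by
    intro e
    apply Subtype.ext
    simp [slotMap, Sym2.map_map]
  right_inv := by
    intro e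
    apply Subtype.ext
    simp [slotMap, Sym2.map_map]

theorem graphOf_adj {n : ℕ} (ω : EdgeSlot n → Bool) (a b : Fin n) :
    (graphOf ω).Adj a b ↔ ∃ h : ¬ (s(a, b)).IsDiag, ω ⟨s(a, b), h⟩ = true := by
  unfold graphOf
  rw [SimpleGraph.fromEdgeSet_adj]
  constructor
  · exact fun h => h.1
  · intro h
    refine ⟨h, ?_⟩
    obtain ⟨h1, _⟩ := h
    simpa using h1

theorem graphOf_comp {n : ℕ} (σ : Equiv.Perm (Fin n)) (ω : EdgeSlot n → Bool) :
    (graphOf (ω ∘ slotPerm σ)).map σ.toEmbedding = graphOf ω := by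
  ext a b
  obtain ⟨a, rfl⟩ := σ.surjective a
  obtain ⟨b, rfl⟩ := σ.surjective b
  have := SimpleGraph.map_adj_apply (G := graphOf (ω ∘ slotPerm σ)) (f := σ.toEmbedding)
    (a := a) (b := b)
  refine this.trans ?_
  rw [graphOf_adj, graphOf_adj]
  constructor
  · rintro ⟨h, h2⟩
    exact ⟨by simpa using h, h2⟩
  · rintro ⟨h, h2⟩
    exact ⟨by simpa using h, h2⟩

theorem graphOf_mono {n : ℕ} (ω : EdgeSlot n → Bool) (e : EdgeSlot n) :
    graphOf (Function.update ω e false) ≤ graphOf (Function.update ω e true) := by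
  intro a b
  rw [graphOf_adj, graphOf_adj]
  rintro ⟨h, h2⟩
  refine ⟨h, ?_⟩
  by_cases he : (⟨s(a, b), h⟩ : EdgeSlot n) = e
  · rw [he]; simp
  · rw [Function.update_of_ne he] at h2 ⊢
    exact h2

theorem threshold (n : ℕ) (hn : 2 ≤ n)
    (P : Set (SimpleGraph (Fin n)))
    (hsymm : ∀ σ : Equiv.Perm (Fin n), ∀ G : SimpleGraph (Fin n), G ∈ P → G.map σ.toEmbedding ∈ P)
    (hmono : ∀ G G' : SimpleGraph (Fin n), G ≤ G' → G ∈ P → G' ∈ P)
    (ε : ℝ) (hε0 : 0 < ε) (hε : ε < 1 / 2)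
    (p q : ℝ) (hp0 : 0 ≤ p) (hq1 : q ≤ 1)
    (hp : ε ≤ gnpProb n p P)
    (hq : p + 2 ^ 19 / Real.log n ^ 2 * Real.log (1 / (2 * ε)) ≤ q) :
    1 - ε ≤ gnpProb n q P := by
  classical
  set F : (EdgeSlot n → Bool) → ℝ := fun x => if graphOf x ∈ P then 1 else 0 with hF
  have e1 : ∀ t, gnpProb n t P = Ex t F := by
    intro t
    unfold gnpProb
    rw [bernoulliProb_eq_Ex]
    rfl
  have hF0 : ∀ x, 0 ≤ F x := fun x => by rw [hF]; simp only []; split_ifs <;> norm_num
  have hF1 : ∀ x, F x ≤ 1 := fun x => by rw [hF]; simp only []; split_ifs <;> norm_num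
  have hDv : ∀ e x, 0 ≤ Dv e F x := by
    intro e x
    unfold Dv
    rw [hF]
    simp only []
    by_cases h : graphOf (Function.update x e false) ∈ P
    · rw [if_pos h, if_pos (hmono _ _ (graphOf_mono x e) h)]; norm_num
    · rw [if_neg h]; split_ifs <;> norm_num
  have hn2' : (2 : ℝ) ≤ n := by exact_mod_cast hn
  have hL : 0 < Real.log n := Real.log_pos (by linarith)
  have hlog : 0 < Real.log (1 / (2 * ε)) := by
    apply Real.log_pos
    rw [lt_div_iff₀ (by positivity)]
    linarith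
  have hpq : p ≤ q := by
    have : 0 ≤ 2 ^ 19 / Real.log n ^ 2 * Real.log (1 / (2 * ε)) := by positivity
    linarith
  have hinv : ∀ σ : Equiv.Perm (Fin n), ∀ x, F (x ∘ slotPerm σ) = F x := by
    intro σ x
    have : graphOf (x ∘ slotPerm σ) ∈ P ↔ graphOf x ∈ P := by
      constructor
      · intro h
        rw [← graphOf_comp σ x]
        exact hsymm σ _ h
      · intro h
        have h2 : x = (x ∘ slotPerm σ) ∘ slotPerm σ.symm := by
          ext e
          simp only [Function.comp]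
          congr 1
          exact ((slotPerm σ).apply_symm_apply e).symm
        rw [← graphOf_comp σ.symm (x ∘ slotPerm σ), ← h2]
        exact hsymm _ _ h
    rw [hF]
    simp only [this]
  rw [e1] at hp ⊢
  apply ode_bound (fun t => Ex t F) (fun t => ∑ e, Ex t (Dv e F)) (hasDerivAt_Ex F)
    (Real.log n ^ 2 / 8192) p q ε hpq hε0 hε
  · intro t ht
    exact Finset.sum_nonneg fun e _ =>
      Ex_nonneg (by linarith [ht.1]) (by linarith [ht.2]) (hDv e)
  · intro t ht
    have ht0 : 0 < t := by linarith [ht.1]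
    have ht1 : t < 1 := by linarith [ht.2]
    have hmain := main_bound (V := Fin n) ht0 ht1 F hF0 hF1 (fun e => e.1.toFinset)
      (by
        intro a b hab
        apply Subtype.ext
        apply Sym2.ext
        intro x
        simp only at hab
        rw [← Sym2.mem_toFinset, ← Sym2.mem_toFinset, hab])
      2 le_rfl (fun e => Sym2.card_toFinset_of_not_isDiag e.1 e.2)
      (fun σ => ⟨slotPerm σ, fun e => by
        ext a
        simp only [Sym2.mem_toFinset, Finset.mem_map, Equiv.coe_toEmbedding]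
        exact Sym2.mem_map, hinv σ⟩)
      n (Fintype.card_fin n) hn
    have e2 : Ex t (fun x => F x ^ 2) = Ex t F := by
      apply Ex_congr
      intro x
      rw [hF]
      simp only []
      split_ifs <;> norm_num
    have e3 : ∑ e, Ex t (fun x => |Dv e F x|) = ∑ e, Ex t (Dv e F) :=
      Finset.sum_congr rfl fun e _ => Ex_congr t fun x => abs_of_nonneg (hDv e x)
    have e4 : (((2 : ℕ) : ℝ) / (((2 : ℕ) : ℝ) - 1)) = 2 := by norm_num
    rw [e2, e3, e4, Real.rpow_two] at hmain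
    have hL2 : 0 < Real.log n ^ 2 := by positivity
    rw [div_mul_eq_mul_div, le_div_iff₀ hL2] at hmain
    push_cast at hmain
    rw [div_mul_eq_mul_div, div_le_iff₀ (by norm_num)]
    linarith
  · exact hp
  · have hL2 : 0 < Real.log n ^ 2 := by positivity
    have h1 : 2 ^ 19 / Real.log n ^ 2 * Real.log (1 / (2 * ε)) ≤ q - p := by linarith
    rw [div_mul_eq_mul_div, div_le_iff₀ hL2] at h1
    nlinarith

end Crest.Agent.R56
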