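import Crest.Agent.Lib.CubeFourier.Hyper

/-!
The local step: average out the coordinates in `A`, freeze those outside `A ∪ B`, and apply the
level inequality to the symmetric function of the coordinates in `B`.
-/

set_option autoImplicit false

namespace Crest.Agent.R56

open Finset Crest.FinProb Crest.Agent.Lib.CubeFourier

variable {ι : Type*} [Fintype ι] [DecidableEq ι]

/-- The restricted and averaged function. -/
noncomputable def restr (p : ℝ) (f : (ι → Bool) → ℝ) (A B : Finset ι) (y x : ι → Bool) : ℝ :=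
  Ex p (fun z => f (A.piecewise z (B.piecewise x y)))

theorem Ex_triple (p : ℝ) (A B : Finset ι) (F : (ι → Bool) → ℝ) :
    Ex p (fun y => Ex p (fun x => Ex p (fun z => F (A.piecewise z (B.piecewise x y))))) =
      Ex p F := by
  rw [Ex_piecewise p B (fun w => Ex p (fun z => F (A.piecewise z w))), Ex_piecewise p A F]

theorem Dv_restr (p : ℝ) (f : (ι → Bool) → ℝ) {A B : Finset ι} (hAB : Disjoint A B) {e : ι}
    (he : e ∈ B) (y x : ι → Bool) :
    Dv e (restr p f A B y) x = Ex p (fun z => Dv e f (A.piecewise z (B.piecewise x y))) := by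
  have heA : e ∉ A := fun h => Finset.disjoint_left.mp hAB h he
  have key : ∀ (z : ι → Bool) (b : Bool), A.piecewise z (B.piecewise (Function.update x e b) y) =
      Function.update (A.piecewise z (B.piecewise x y)) e b := by
    intro z b
    ext i
    by_cases hi : i = e
    · subst hi
      simp [Finset.piecewise, heA, he]
    · simp [Finset.piecewise, Function.update_of_ne hi]
  unfold Dv restr
  rw [← Ex_sub]
  simp only [key]

theorem Ex_abs_Dv_restr_le {p : ℝ} (h0 : 0 ≤ p) (h1 : p ≤ 1) (f : (ι → Bool) → ℝ)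
    {A B : Finset ι} (hAB : Disjoint A B) {e : ι} (he : e ∈ B) :
    Ex p (fun y => Ex p (fun x => |Dv e (restr p f A B y) x|)) ≤ Ex p (fun x => |Dv e f x|) := by
  rw [← Ex_triple p A B (fun x => |Dv e f x|)]
  apply Ex_mono h0 h1
  intro y
  apply Ex_mono h0 h1
  intro x
  rw [Dv_restr p f hAB he]
  exact abs_Ex_le h0 h1 _

theorem restr_comp (p : ℝ) (f : (ι → Bool) → ℝ) (A B : Finset ι) (π : Equiv.Perm ι)
    (hf : ∀ x, f (x ∘ π) = f x) (hA : ∀ i, π i ∈ A ↔ i ∈ A) (hB : ∀ i, π i ∈ B ↔ i ∈ B)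
    (hC : ∀ i, i ∉ A → i ∉ B → π i = i) (y x : ι → Bool) :
    restr p f A B y (x ∘ π) = restr p f A B y x := by
  unfold restr
  rw [← Ex_comp_perm p π.symm (fun z => f (A.piecewise z (B.piecewise x y)))]
  apply Ex_congr
  intro z
  rw [← hf (A.piecewise (z ∘ π.symm) (B.piecewise x y))]
  congr 1
  ext i
  by_cases hiA : i ∈ A
  · have := (hA i).mpr hiA
    simp [Finset.piecewise, hiA, this]
  · have h1 : π i ∉ A := fun h => hiA ((hA i).mp h)
    by_cases hiB : i ∈ B
    · have := (hB i).mpr hiB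
      simp [Finset.piecewise, hiA, h1, hiB, this]
    · simp [Finset.piecewise, hiA, hiB, hC i hiA hiB]

theorem Ex_abs_Dv_perm (p : ℝ) (g : (ι → Bool) → ℝ) (π : Equiv.Perm ι)
    (hg : ∀ x, g (x ∘ π) = g x) (e : ι) :
    Ex p (fun x => |Dv (π e) g x|) = Ex p (fun x => |Dv e g x|) := by
  rw [← Ex_comp_perm p π (fun x => |Dv e g x|)]
  apply Ex_congr
  intro x
  have key : ∀ b : Bool, Function.update (x ∘ π) e b = (Function.update x (π e) b) ∘ π := by
    intro b
    ext i
    by_cases hi : i = e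
    · subst hi; simp
    · have : π i ≠ π e := fun h => hi (π.injective h)
      simp [Function.update_of_ne hi, Function.update_of_ne this]
  unfold Dv
  rw [key, key, hg, hg]

theorem coeff_coeff_restr (p : ℝ) (f : (ι → Bool) → ℝ) {A B : Finset ι} (hAB : Disjoint A B)
    (U : Finset ι) (hU : Disjoint U A) :
    coeff p (fun y => coeff p (restr p f A B y) (U ∩ B)) (U \ B) = coeff p f U := by
  conv_rhs => unfold coeff
  rw [← Ex_triple p A B]
  unfold coeff restr
  apply Ex_congr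
  intro y
  rw [← Ex_mul_const]
  apply Ex_congr
  intro x
  rw [← Ex_mul_const, ← Ex_mul_const]
  apply Ex_congr
  intro z
  rw [mul_assoc]
  congr 1
  unfold chi
  rw [← Finset.prod_inter_mul_prod_sdiff U B]
  congr 1
  · apply Finset.prod_congr rfl
    intro i hi
    have hiB : i ∈ B := (Finset.mem_inter.mp hi).2
    have hiA : i ∉ A := fun h => Finset.disjoint_left.mp hAB h hiB
    simp [Finset.piecewise, hiA, hiB]
  · apply Finset.prod_congr rfl
    intro i hi
    have hiB : i ∉ B := (Finset.mem_sdiff.mp hi).2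
    have hiA : i ∉ A := Finset.disjoint_left.mp hU (Finset.mem_sdiff.mp hi).1
    simp [Finset.piecewise, hiA, hiB]

theorem local_bound {p : ℝ} (h0 : 0 < p) (h1 : p < 1) (f : (ι → Bool) → ℝ)
    (hf0 : ∀ x, 0 ≤ f x) (hf1 : ∀ x, f x ≤ 1) {A B : Finset ι} (hAB : Disjoint A B)
    (m : ℕ) (η : ℝ) (hη : 0 < η) (D : ℕ) (hK : (4 / sig p) ^ (2 * D) ≤ η ^ 3 * m)
    (hsym : ∀ e ∈ B, ∃ T ⊆ B, m ≤ T.card ∧ ∀ e' ∈ T, ∃ π : Equiv.Perm ι, π e = e' ∧
      (∀ x, f (x ∘ π) = f x) ∧ (∀ i, π i ∈ A ↔ i ∈ A) ∧ (∀ i, π i ∈ B ↔ i ∈ B) ∧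
      (∀ i, i ∉ A → i ∉ B → π i = i))
    (𝓖 : Finset (Finset ι))
    (h𝓖 : ∀ U ∈ 𝓖, Disjoint U A ∧ (U ∩ B).Nonempty ∧ (U ∩ B).card ≤ D) :
    ∑ U ∈ 𝓖, coeff p f U ^ 2 ≤ η * ∑ e ∈ B, Ex p (fun x => |Dv e f x|) := by
  set 𝓕 : Finset (Finset ι) :=
    Finset.univ.filter (fun S => S.card ≤ D ∧ ∃ e ∈ B, e ∈ S) with h𝓕
  have hy : ∀ y, ∑ S ∈ 𝓕, coeff p (restr p f A B y) S ^ 2 ≤
      η * ∑ e ∈ B, Ex p (fun x => |Dv e (restr p f A B y) x|) := by
    intro y
    apply kkl_level h0 h1 (restr p f A B y) _ _ B m η hη D hK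
    · intro e he
      obtain ⟨T, hTB, hTm, hT⟩ := hsym e he
      have hnn : ∀ e', 0 ≤ Ex p (fun x => |Dv e' (restr p f A B y) x|) :=
        fun e' => Ex_nonneg h0.le h1.le fun x => abs_nonneg _
      calc (m : ℝ) * Ex p (fun x => |Dv e (restr p f A B y) x|)
          ≤ (T.card : ℝ) * Ex p (fun x => |Dv e (restr p f A B y) x|) :=
            mul_le_mul_of_nonneg_right (by exact_mod_cast hTm) (hnn e)
        _ = ∑ e' ∈ T, Ex p (fun x => |Dv e' (restr p f A B y) x|) := by
            rw [← nsmul_eq_mul, ← Finset.sum_const]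
            apply Finset.sum_congr rfl
            intro e' he'
            obtain ⟨π, hπe, hπf, hπA, hπB, hπC⟩ := hT e' he'
            rw [← hπe, Ex_abs_Dv_perm p _ π (restr_comp p f A B π hπf hπA hπB hπC y)]
        _ ≤ _ := Finset.sum_le_sum_of_subset_of_nonneg hTB (fun e' _ _ => hnn e')
    · intro S hS
      exact (Finset.mem_filter.mp hS).2.1
    · intro S hS
      exact (Finset.mem_filter.mp hS).2.2
    · intro x
      exact Ex_nonneg h0.le h1.le fun z => hf0 _
    · intro x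
      unfold restr
      calc _ ≤ Ex p (fun _ : ι → Bool => 1) := Ex_mono h0.le h1.le fun z => hf1 _
        _ = 1 := Ex_const _ _
  set F : Finset ι × Finset ι → ℝ :=
    fun z => coeff p (fun y => coeff p (restr p f A B y) z.1) z.2 ^ 2 with hF
  have hinj : Set.InjOn (fun U : Finset ι => (U ∩ B, U \ B)) 𝓖 := by
    intro U _ U' _ h
    simp only [Prod.mk.injEq] at h
    rw [← Finset.sdiff_union_inter U B, ← Finset.sdiff_union_inter U' B, h.1, h.2]
  calc ∑ U ∈ 𝓖, coeff p f U ^ 2 = ∑ U ∈ 𝓖, F (U ∩ B, U \ B) := by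
        apply Finset.sum_congr rfl
        intro U hU
        rw [hF]
        simp only []
        rw [coeff_coeff_restr p f hAB U (h𝓖 U hU).1]
    _ = ∑ z ∈ 𝓖.image (fun U : Finset ι => (U ∩ B, U \ B)), F z := by
        rw [Finset.sum_image hinj]
    _ ≤ ∑ z ∈ 𝓕 ×ˢ (Finset.univ : Finset (Finset ι)), F z := by
        apply Finset.sum_le_sum_of_subset_of_nonneg
        · intro z hz
          obtain ⟨U, hU, rfl⟩ := Finset.mem_image.mp hz
          obtain ⟨_, ⟨e, he⟩, hc⟩ := h𝓖 U hU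
          rw [Finset.mem_product]
          refine ⟨Finset.mem_filter.mpr ⟨Finset.mem_univ _, hc, e, (Finset.mem_inter.mp he).2, he⟩,
            Finset.mem_univ _⟩
        · intro z _ _
          exact sq_nonneg _
    _ = ∑ S ∈ 𝓕, Ex p (fun y => coeff p (restr p f A B y) S ^ 2) := by
        rw [Finset.sum_product]
        apply Finset.sum_congr rfl
        intro S _
        rw [parseval h0 h1]
    _ = Ex p (fun y => ∑ S ∈ 𝓕, coeff p (restr p f A B y) S ^ 2) := (Ex_sum _ _ _).symm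
    _ ≤ Ex p (fun y => η * ∑ e ∈ B, Ex p (fun x => |Dv e (restr p f A B y) x|)) :=
        Ex_mono h0.le h1.le hy
    _ = η * ∑ e ∈ B, Ex p (fun y => Ex p (fun x => |Dv e (restr p f A B y) x|)) := by
        rw [Ex_const_mul, Ex_sum]
    _ ≤ _ := by
        apply mul_le_mul_of_nonneg_left _ hη.le
        exact Finset.sum_le_sum fun e he => Ex_abs_Dv_restr_le h0.le h1.le f hAB he

end Crest.Agent.R56
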