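import Crest.Agent.R56.Count

/-!
The variance bound for vertex-symmetric functions of an `r`-uniform hypergraph.
-/

set_option autoImplicit false

namespace Crest.Agent.R56

open Finset Crest.FinProb Crest.Agent.Lib.CubeFourier

variable {ι : Type*} [Fintype ι] [DecidableEq ι] {V : Type*} [Fintype V] [DecidableEq V]

theorem sum_Dv_sq_le {p : ℝ} (h0 : 0 < p) (h1 : p < 1) (f : (ι → Bool) → ℝ)
    (hf0 : ∀ x, 0 ≤ f x) (hf1 : ∀ x, f x ≤ 1) :
    ∑ e, Ex p (fun x => Dv e f x ^ 2) ≤ ∑ e, Ex p (fun x => |Dv e f x|) := by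
  apply Finset.sum_le_sum
  intro e _
  apply Ex_mono h0.le h1.le
  intro x
  have hDv : |Dv e f x| ≤ 1 := by
    unfold Dv
    rw [abs_le]
    constructor <;>
      linarith [hf0 (Function.update x e true), hf1 (Function.update x e true),
        hf0 (Function.update x e false), hf1 (Function.update x e false)]
  rw [← sq_abs]
  nlinarith [abs_nonneg (Dv e f x)]

theorem poincare {p : ℝ} (h0 : 0 < p) (h1 : p < 1) (f : (ι → Bool) → ℝ)
    (hf0 : ∀ x, 0 ≤ f x) (hf1 : ∀ x, f x ≤ 1) :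
    Ex p (fun x => f x ^ 2) - Ex p f ^ 2 ≤ 1 / 4 * ∑ e, Ex p (fun x => |Dv e f x|) := by
  rw [var_eq h0 h1]
  have hI : 0 ≤ ∑ e, Ex p (fun x => |Dv e f x|) :=
    Finset.sum_nonneg fun e _ => Ex_nonneg h0.le h1.le fun x => abs_nonneg _
  calc _ ≤ ∑ S ∈ Finset.univ.erase (∅ : Finset ι), (S.card : ℝ) * coeff p f S ^ 2 := by
        apply Finset.sum_le_sum
        intro S hS
        have : (1 : ℝ) ≤ S.card := by
          exact_mod_cast Finset.card_pos.mpr
            (Finset.nonempty_iff_ne_empty.mpr (Finset.ne_of_mem_erase hS))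
        nlinarith [sq_nonneg (coeff p f S)]
    _ ≤ ∑ S : Finset ι, (S.card : ℝ) * coeff p f S ^ 2 :=
        Finset.sum_le_sum_of_subset_of_nonneg (Finset.subset_univ _) (fun _ _ _ => by positivity)
    _ ≤ _ := sum_card_mul_coeff_sq_le h0 h1 f
    _ ≤ p * (1 - p) * ∑ e, Ex p (fun x => |Dv e f x|) :=
        mul_le_mul_of_nonneg_left (sum_Dv_sq_le h0 h1 f hf0 hf1) (mul_nonneg h0.le (by linarith))
    _ ≤ _ := mul_le_mul_of_nonneg_right (by nlinarith [sq_nonneg (p - 1 / 2)]) hI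

theorem param_bound {p : ℝ} (h0 : 0 < p) (h1 : p < 1) (f : (ι → Bool) → ℝ)
    (hf0 : ∀ x, 0 ≤ f x) (hf1 : ∀ x, f x ≤ 1) (vs : ι → Finset V) (hinj : Function.Injective vs)
    (r : ℕ) (hr2 : 2 ≤ r) (hr : ∀ e, (vs e).card = r)
    (hsym : ∀ σ : Equiv.Perm V, ∃ π : Equiv.Perm ι,
      (∀ e, vs (π e) = (vs e).map σ.toEmbedding) ∧ ∀ x, f (x ∘ π) = f x)
    (k D : ℕ) (η : ℝ) (hη : 0 < η) (hK : (4 / sig p) ^ (2 * D) ≤ η ^ 3 * ((k + 1 : ℕ) : ℝ))
    (hM : 2 * (D + 1) ^ 2 * k ≤ Fintype.card V) :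
    Ex p (fun x => f x ^ 2) - Ex p f ^ 2 ≤
      (2 * η * r + r * (p * (1 - p)) / ((D + 1 : ℕ) : ℝ) ^ ((r : ℝ) / ((r : ℝ) - 1))) *
        ∑ e, Ex p (fun x => |Dv e f x|) := by
  classical
  set s : ℝ := (r : ℝ) / ((r : ℝ) - 1) with hs
  set Q : ℝ := ((D + 1 : ℕ) : ℝ) ^ s with hQ
  have hr2' : (2 : ℝ) ≤ r := by exact_mod_cast hr2
  have hD1 : (1 : ℝ) ≤ ((D + 1 : ℕ) : ℝ) := by exact_mod_cast Nat.succ_le_succ (Nat.zero_le D)
  have hQpos : 0 < Q := Real.rpow_pos_of_pos (by linarith) _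
  have hs2 : s ≤ 2 := by
    rw [hs, div_le_iff₀ (by linarith)]; linarith
  have hQle : Q ≤ (((D + 1) ^ 2 : ℕ) : ℝ) := by
    calc Q ≤ ((D + 1 : ℕ) : ℝ) ^ (2 : ℝ) := Real.rpow_le_rpow_of_exponent_le hD1 hs2
      _ = _ := by rw [Real.rpow_two]; push_cast; ring
  set 𝓛 : Finset (Finset ι) := Finset.univ.filter (fun U =>
    (U.biUnion vs).card ≤ (D + 1) ^ 2 ∧ ∃ w, 1 ≤ deg vs U w ∧ deg vs U w ≤ D) with h𝓛
  have hk : k ≤ Fintype.card V := by
    have : 1 ≤ (D + 1) ^ 2 := Nat.one_le_pow _ _ (Nat.succ_pos D)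
    nlinarith
  have hlow := low_weight h0 h1 f hf0 hf1 vs hinj r hr hsym k D ((D + 1) ^ 2) η hη hK hM hk 𝓛
    (fun U hU => (Finset.mem_filter.mp hU).2)
  have hhigh : ∀ S : Finset ι, S.Nonempty → S ∉ 𝓛 → Q ≤ r * S.card := by
    intro S hS hn
    by_contra hlt
    push Not at hlt
    apply hn
    refine Finset.mem_filter.mpr ⟨Finset.mem_univ _, ?_, ?_⟩
    · have e1 : (S.biUnion vs).card ≤ S.card * r :=
        Finset.card_biUnion_le_card_mul _ _ _ (fun e _ => (hr e).le)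
      have e2 : ((S.card * r : ℕ) : ℝ) ≤ (((D + 1) ^ 2 : ℕ) : ℝ) := by
        push_cast at hQle ⊢
        nlinarith
      exact le_trans e1 (by exact_mod_cast e2)
    · by_contra hno
      push Not at hno
      obtain ⟨v, hv1, hv2⟩ := high_degree vs hinj r (by omega) hr S hS D
        (fun w hw => hno w hw)
      have e1 : ((D + 1 : ℕ) : ℝ) ^ (1 / ((r : ℝ) - 1)) ≤ v := by
        have e2 : ((D + 1 : ℕ) : ℝ) ≤ (v : ℝ) ^ ((r : ℝ) - 1) := by
          have : ((r : ℝ) - 1) = ((r - 1 : ℕ) : ℝ) := by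
            rw [Nat.cast_sub (by omega)]; simp
          rw [this, Real.rpow_natCast]
          exact_mod_cast hv1
        calc _ ≤ ((v : ℝ) ^ ((r : ℝ) - 1)) ^ (1 / ((r : ℝ) - 1)) :=
              Real.rpow_le_rpow (by linarith) e2 (by apply div_nonneg <;> linarith)
          _ = v := by
              rw [← Real.rpow_mul (Nat.cast_nonneg v), mul_one_div_cancel (by linarith),
                Real.rpow_one]
      have e3 : Q = ((D + 1 : ℕ) : ℝ) ^ (1 / ((r : ℝ) - 1)) * ((D + 1 : ℕ) : ℝ) := by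
        rw [hQ, ← Real.rpow_add_one (by linarith)]
        congr 1
        rw [hs]
        have : (r : ℝ) - 1 ≠ 0 := by linarith
        field_simp
        ring
      have e4 : (v : ℝ) * ((D + 1 : ℕ) : ℝ) ≤ r * S.card := by exact_mod_cast hv2
      have e5 : Q ≤ (v : ℝ) * ((D + 1 : ℕ) : ℝ) := by
        rw [e3]
        exact mul_le_mul_of_nonneg_right e1 (by linarith)
      linarith
  rw [var_eq h0 h1]
  have hstep : ∑ S ∈ Finset.univ.erase (∅ : Finset ι), coeff p f S ^ 2 ≤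
      ∑ S ∈ 𝓛, coeff p f S ^ 2 + r / Q * ∑ S : Finset ι, (S.card : ℝ) * coeff p f S ^ 2 := by
    have e1 : ∑ S ∈ 𝓛, coeff p f S ^ 2 =
        ∑ S : Finset ι, if S ∈ 𝓛 then coeff p f S ^ 2 else 0 := by
      rw [← Finset.sum_filter]
      congr 1
      ext S; simp
    rw [e1, Finset.mul_sum, ← Finset.sum_add_distrib]
    refine le_trans (Finset.sum_le_sum ?_)
      (Finset.sum_le_sum_of_subset_of_nonneg (Finset.subset_univ _) ?_)
    · intro S hS
      have hne : S.Nonempty := Finset.nonempty_iff_ne_empty.mpr (Finset.ne_of_mem_erase hS)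
      split_ifs with hL
      · have : 0 ≤ r / Q * ((S.card : ℝ) * coeff p f S ^ 2) := by positivity
        linarith
      · have h2 := hhigh S hne hL
        have h3 : 1 ≤ r / Q * (S.card : ℝ) := by
          rw [div_mul_eq_mul_div, le_div_iff₀ hQpos]; linarith
        rw [zero_add, ← mul_assoc]
        nlinarith [sq_nonneg (coeff p f S)]
    · intro S _ _
      split_ifs <;> positivity
  have hdeg := le_trans (sum_card_mul_coeff_sq_le h0 h1 f)
    (mul_le_mul_of_nonneg_left (sum_Dv_sq_le h0 h1 f hf0 hf1) (mul_nonneg h0.le (by linarith)))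
  have hrQ : 0 ≤ r / Q := by positivity
  calc _ ≤ _ := hstep
    _ ≤ 2 * η * r * ∑ e, Ex p (fun x => |Dv e f x|) +
        r / Q * (p * (1 - p) * ∑ e, Ex p (fun x => |Dv e f x|)) :=
        add_le_add hlow (mul_le_mul_of_nonneg_left hdeg hrQ)
    _ = _ := by ring

theorem main_bound {p : ℝ} (h0 : 0 < p) (h1 : p < 1) (f : (ι → Bool) → ℝ)
    (hf0 : ∀ x, 0 ≤ f x) (hf1 : ∀ x, f x ≤ 1) (vs : ι → Finset V) (hinj : Function.Injective vs)
    (r : ℕ) (hr2 : 2 ≤ r) (hr : ∀ e, (vs e).card = r)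
    (hsym : ∀ σ : Equiv.Perm V, ∃ π : Equiv.Perm ι,
      (∀ e, vs (π e) = (vs e).map σ.toEmbedding) ∧ ∀ x, f (x ∘ π) = f x)
    (n : ℕ) (hn : Fintype.card V = n) (hn2 : 2 ≤ n) :
    Ex p (fun x => f x ^ 2) - Ex p f ^ 2 ≤
      4096 * r / Real.log n ^ ((r : ℝ) / ((r : ℝ) - 1)) * ∑ e, Ex p (fun x => |Dv e f x|) := by
  set s : ℝ := (r : ℝ) / ((r : ℝ) - 1) with hs
  set L := Real.log n with hL
  have hr2' : (2 : ℝ) ≤ r := by exact_mod_cast hr2
  have hn2' : (2 : ℝ) ≤ n := by exact_mod_cast hn2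
  have hLpos : 0 < L := Real.log_pos (by linarith)
  have hs2 : s ≤ 2 := by
    rw [hs, div_le_iff₀ (by linarith)]; linarith
  have hs0 : 0 ≤ s := by
    rw [hs]; apply div_nonneg <;> linarith
  have hLs : 0 < L ^ s := Real.rpow_pos_of_pos hLpos _
  have hI : 0 ≤ ∑ e, Ex p (fun x => |Dv e f x|) :=
    Finset.sum_nonneg fun e _ => Ex_nonneg h0.le h1.le fun x => abs_nonneg _
  by_cases hsmall : L ≤ 128
  · refine le_trans (poincare h0 h1 f hf0 hf1) (mul_le_mul_of_nonneg_right ?_ hI)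
    rw [le_div_iff₀ hLs]
    have : L ^ s ≤ 16384 := by
      calc L ^ s ≤ (128 : ℝ) ^ s := Real.rpow_le_rpow hLpos.le hsmall hs0
        _ ≤ (128 : ℝ) ^ (2 : ℝ) := Real.rpow_le_rpow_of_exponent_le (by norm_num) hs2
        _ = 16384 := by rw [Real.rpow_two]; norm_num
    linarith
  · push Not at hsmall
    have hσ := sig_pos h0 h1
    have hK8 := eight_le_K h0 h1
    set K := 4 / sig p with hK
    set κ := Real.log K with hκ
    have hκ1 : 7 / 8 ≤ κ := by
      have h2 := Real.one_sub_inv_le_log_of_pos (by linarith : 0 < K)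
      have h3 : K⁻¹ ≤ 8⁻¹ := inv_anti₀ (by norm_num) hK8
      linarith
    have hκ2 : κ ≤ K := by
      have := Real.log_le_sub_one_of_pos (by linarith : 0 < K)
      linarith
    set D := ⌊L / (8 * κ)⌋₊ with hD
    set k := ⌊Real.exp (L / 2)⌋₊ with hk
    have hD1 : (D : ℝ) ≤ L / (8 * κ) := Nat.floor_le (by positivity)
    have hD2 : L / (8 * κ) ≤ ((D + 1 : ℕ) : ℝ) := by
      push_cast; exact (Nat.lt_floor_add_one _).le
    have hk1 : (k : ℝ) ≤ Real.exp (L / 2) := Nat.floor_le (Real.exp_pos _).le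
    have hk2 : Real.exp (L / 2) ≤ ((k + 1 : ℕ) : ℝ) := by
      push_cast; exact (Nat.lt_floor_add_one _).le
    have hDL : ((D + 1 : ℕ) : ℝ) ≤ L := by
      have : L / (8 * κ) ≤ L / 7 := div_le_div_of_nonneg_left hLpos.le (by norm_num) (by linarith)
      push_cast
      linarith
    have hexpL : Real.exp L = n := Real.exp_log (by linarith)
    have hKD : K ^ (2 * D) ≤ Real.exp (-L / 12) ^ 3 * ((k + 1 : ℕ) : ℝ) := by
      have e1 : K ^ (2 * D) = Real.exp (((2 * D : ℕ) : ℝ) * κ) := by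
        rw [Real.exp_nat_mul, hκ, Real.exp_log (by linarith)]
      have e2 : ((2 * D : ℕ) : ℝ) * κ ≤ L / 4 := by
        rw [le_div_iff₀ (by positivity)] at hD1
        push_cast
        linarith
      calc K ^ (2 * D) ≤ Real.exp (L / 4) := by rw [e1]; exact Real.exp_le_exp.mpr e2
        _ = Real.exp (-L / 12) ^ 3 * Real.exp (L / 2) := by
            rw [← Real.exp_nat_mul, ← Real.exp_add]
            congr 1
            push_cast
            ring
        _ ≤ _ := mul_le_mul_of_nonneg_left hk2 (by positivity)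
    have hM : 2 * (D + 1) ^ 2 * k ≤ Fintype.card V := by
      rw [hn]
      have e1 : 2 * L ^ 2 ≤ Real.exp (L / 2) := by
        have h2 : L / 8 ≤ Real.exp (L / 8) := by linarith [Real.add_one_le_exp (L / 8)]
        have h3 : Real.exp (L / 2) = Real.exp (L / 8) ^ 4 := by
          rw [← Real.exp_nat_mul]; congr 1; push_cast; ring
        have h4 : (L / 8) ^ 4 ≤ Real.exp (L / 8) ^ 4 := pow_le_pow_left₀ (by positivity) h2 4
        have h5 : 128 ^ 2 ≤ L ^ 2 := pow_le_pow_left₀ (by norm_num) hsmall.le 2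
        rw [h3]
        nlinarith [sq_nonneg L]
      have e2 : (2 : ℝ) * ((D + 1 : ℕ) : ℝ) ^ 2 * k ≤ n := by
        have h6 : ((D + 1 : ℕ) : ℝ) ^ 2 ≤ L ^ 2 := pow_le_pow_left₀ (by positivity) hDL 2
        calc (2 : ℝ) * ((D + 1 : ℕ) : ℝ) ^ 2 * k ≤ Real.exp (L / 2) * Real.exp (L / 2) :=
              mul_le_mul (by linarith) hk1 (Nat.cast_nonneg _) (Real.exp_pos _).le
          _ = n := by rw [← Real.exp_add, ← hexpL]; congr 1; ring
      exact_mod_cast e2
    have hmain := param_bound h0 h1 f hf0 hf1 vs hinj r hr2 hr hsym k D (Real.exp (-L / 12))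
      (Real.exp_pos _) hKD hM
    refine le_trans hmain (mul_le_mul_of_nonneg_right ?_ hI)
    have hL1 : 1 ≤ L := by linarith
    have hLs2 : L ^ s ≤ L ^ 2 := by
      calc L ^ s ≤ L ^ (2 : ℝ) := Real.rpow_le_rpow_of_exponent_le hL1 hs2
        _ = _ := Real.rpow_two _
    have t1 : Real.exp (-L / 12) ≤ 576 / L ^ s := by
      rw [le_div_iff₀ hLs]
      have h2 : L / 24 ≤ Real.exp (L / 24) := by linarith [Real.add_one_le_exp (L / 24)]
      have h3 : Real.exp (-L / 12) * Real.exp (L / 24) ^ 2 = 1 := by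
        rw [← Real.exp_nat_mul, ← Real.exp_add, ← Real.exp_zero]; congr 1; push_cast; ring
      have h4 : (L / 24) ^ 2 ≤ Real.exp (L / 24) ^ 2 := pow_le_pow_left₀ (by positivity) h2 2
      have h5 := Real.exp_pos (-L / 12)
      nlinarith
    have t2 : p * (1 - p) / ((D + 1 : ℕ) : ℝ) ^ s ≤ 1024 / L ^ s := by
      have h8 : (1 : ℝ) ≤ 8 * κ := by linarith
      have h2 : (L / (8 * κ)) ^ s ≤ ((D + 1 : ℕ) : ℝ) ^ s :=
        Real.rpow_le_rpow (by positivity) hD2 hs0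
      rw [Real.div_rpow hLpos.le (by positivity)] at h2
      have h3 : (8 * κ) ^ s ≤ (8 * κ) ^ 2 := by
        calc (8 * κ) ^ s ≤ (8 * κ) ^ (2 : ℝ) := Real.rpow_le_rpow_of_exponent_le h8 hs2
          _ = _ := Real.rpow_two _
      have h4 : 0 < (8 * κ) ^ s := Real.rpow_pos_of_pos (by linarith) _
      have h5 : sig p * κ ≤ 4 := by
        have : sig p * K = 4 := by rw [hK]; field_simp
        nlinarith
      have h6 : p * (1 - p) * (8 * κ) ^ 2 ≤ 1024 := by
        rw [← sig_sq h0.le h1.le]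
        have : (sig p * κ) ^ 2 ≤ 4 ^ 2 := pow_le_pow_left₀ (by positivity) h5 2
        nlinarith
      have hpp : 0 ≤ p * (1 - p) := mul_nonneg h0.le (by linarith)
      have h7 : 0 < ((D + 1 : ℕ) : ℝ) ^ s := Real.rpow_pos_of_pos (by positivity) _
      rw [div_le_div_iff₀ h7 hLs]
      rw [div_le_iff₀ h4] at h2
      calc p * (1 - p) * L ^ s ≤ p * (1 - p) * (((D + 1 : ℕ) : ℝ) ^ s * (8 * κ) ^ 2) :=
            mul_le_mul_of_nonneg_left
              (le_trans h2 (mul_le_mul_of_nonneg_left h3 h7.le)) hpp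
        _ = (p * (1 - p) * (8 * κ) ^ 2) * ((D + 1 : ℕ) : ℝ) ^ s := by ring
        _ ≤ _ := mul_le_mul_of_nonneg_right h6 h7.le
    have hr0 : (0 : ℝ) ≤ r := by linarith
    calc 2 * Real.exp (-L / 12) * r + r * (p * (1 - p)) / ((D + 1 : ℕ) : ℝ) ^ s
        = r * (2 * Real.exp (-L / 12) + p * (1 - p) / ((D + 1 : ℕ) : ℝ) ^ s) := by ring
      _ ≤ r * (2 * (576 / L ^ s) + 1024 / L ^ s) :=
          mul_le_mul_of_nonneg_left (by linarith) hr0
      _ = 2176 * r / L ^ s := by ring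
      _ ≤ 4096 * r / L ^ s := div_le_div_of_nonneg_right (by linarith) hLs.le

end Crest.Agent.R56
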